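import Vale.Agent.P072.Main

namespace Vale.Agent.Results.P072.DimTwoPermanence

open Vale.Agent.P072

/-- Weakly reversible mass-action systems whose stoichiometric subspace has dimension at most two
are permanent on every positive stoichiometric class, for all positive constant rates and,
uniformly, for all measurable rates with values in `[ε, 1/ε]`. -/
theorem result (d : ℕ) (G : Network d) (hwr : G.WeaklyReversible)
    (hdim : Module.finrank ℝ G.stoich ≤ 2) (c : Fin d → ℝ) (hc : ∀ i, 0 < c i) :
    (∀ k : (Fin d → ℕ) × (Fin d → ℕ) → ℝ, (∀ r ∈ G.rxn, 0 < k r) → G.Permanent k c) ∧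
      (∀ ε : ℝ, 0 < ε → G.VarPermanent ε c) :=
  ⟨fun k hk => permanent hwr hdim c hc k hk, fun _ hε => varPermanent hwr hdim c hc hε⟩

end Vale.Agent.Results.P072.DimTwoPermanence
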