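import Vale.Agent.P072.Literal

open Set MeasureTheory Filter Topology

namespace Vale.Agent.Results.P072.LiteralUniform

/-- The permanence conjecture, written out without auxiliary definitions, for constant rates, for
constant rates uniformly in `[ε, 1/ε]`, and for measurable time-dependent rates in `[ε, 1/ε]`. -/
theorem result (d : ℕ) (C : Finset (Fin d → ℕ)) (R : Finset ((Fin d → ℕ) × (Fin d → ℕ)))
    (hR : ∀ r ∈ R, r.1 ∈ C ∧ r.2 ∈ C ∧ r.1 ≠ r.2)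
    (hwr : ∀ y y' : Fin d → ℕ, (y, y') ∈ R →
      Relation.ReflTransGen (fun u v => (u, v) ∈ R) y' y)
    (f : ((Fin d → ℕ) × (Fin d → ℕ) → ℝ) → (Fin d → ℝ) → Fin d → ℝ)
    (hf : ∀ k x i, f k x i =
      ∑ r ∈ R, k r * (∏ j, x j ^ r.1 j) * ((r.2 i : ℝ) - (r.1 i : ℝ)))
    (S : Submodule ℝ (Fin d → ℝ))
    (hS : S = Submodule.span ℝ {v | ∃ r ∈ R, ∀ i, v i = (r.2 i : ℝ) - (r.1 i : ℝ)})
    (c : Fin d → ℝ) (hc : ∀ i, 0 < c i)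
    (P : Set (Fin d → ℝ)) (hP : P = {x | (∀ i, 0 < x i) ∧ x - c ∈ S}) :
    (∀ k : (Fin d → ℕ) × (Fin d → ℕ) → ℝ, (∀ r ∈ R, 0 < k r) →
      ∃ K ⊆ P, IsCompact K ∧ ∀ x₀ ∈ P, ∃ x : ℝ → Fin d → ℝ, x 0 = x₀ ∧
        (∀ t ≥ 0, HasDerivWithinAt x (f k (x t)) (Ici 0) t) ∧
        (∀ t ≥ 0, x t ∈ P) ∧ (∀ᶠ t in atTop, x t ∈ K) ∧
        ∀ τ > 0, ∀ z : ℝ → Fin d → ℝ, z 0 = x₀ →
          (∀ t ∈ Ico 0 τ, HasDerivWithinAt z (f k (z t)) (Ico 0 τ) t) →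
          ∀ t ∈ Ico 0 τ, z t = x t) ∧
    (∀ ε > 0, ∃ K ⊆ P, IsCompact K ∧ ∀ x₀ ∈ P, ∃ T : ℝ,
      ∀ k : (Fin d → ℕ) × (Fin d → ℕ) → ℝ, (∀ r ∈ R, ε ≤ k r ∧ k r ≤ 1 / ε) →
        ∃ x : ℝ → Fin d → ℝ, x 0 = x₀ ∧
          (∀ t ≥ 0, HasDerivWithinAt x (f k (x t)) (Ici 0) t) ∧
          (∀ t ≥ 0, x t ∈ P) ∧ (∀ t ≥ 0, T ≤ t → x t ∈ K) ∧
          ∀ τ > 0, ∀ z : ℝ → Fin d → ℝ, z 0 = x₀ →
            (∀ t ∈ Ico 0 τ, HasDerivWithinAt z (f k (z t)) (Ico 0 τ) t) →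
            ∀ t ∈ Ico 0 τ, z t = x t) ∧
    (∀ ε > 0, ∃ K ⊆ P, IsCompact K ∧ ∀ x₀ ∈ P, ∃ T : ℝ,
      ∀ κ : ℝ → (Fin d → ℕ) × (Fin d → ℕ) → ℝ, (∀ r ∈ R, Measurable fun t => κ t r) →
        (∀ t ≥ 0, ∀ r ∈ R, ε ≤ κ t r ∧ κ t r ≤ 1 / ε) →
        ∃ x : ℝ → Fin d → ℝ, x 0 = x₀ ∧
          (ContinuousOn x (Ici 0) ∧ ∀ t ≥ 0,
            IntervalIntegrable (fun s => f (κ s) (x s)) volume 0 t ∧
            x t = x 0 + ∫ s in (0 : ℝ)..t, f (κ s) (x s)) ∧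
          (∀ t ≥ 0, x t ∈ P) ∧ (∀ t ≥ 0, T ≤ t → x t ∈ K) ∧
          ∀ τ > 0, ∀ z : ℝ → Fin d → ℝ, z 0 = x₀ →
            (ContinuousOn z (Ico 0 τ) ∧ ∀ t ∈ Ico 0 τ,
              IntervalIntegrable (fun s => f (κ s) (z s)) volume 0 t ∧
              z t = z 0 + ∫ s in (0 : ℝ)..t, f (κ s) (z s)) →
            ∀ t ∈ Ico 0 τ, z t = x t) := by
  let G : Vale.Agent.P072.Network d :=
    ⟨C, R, fun r hr => ⟨(hR r hr).1, (hR r hr).2.1⟩, fun r hr => (hR r hr).2.2⟩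
  have hG : G.WeaklyReversible := fun r hr => hwr r.1 r.2 hr
  have hfG : f = G.field := by
    funext k x i
    rw [hf]
    simp only [Vale.Agent.P072.Network.field, Vale.Agent.P072.Network.rvec, Finset.sum_apply,
      Pi.smul_apply, smul_eq_mul]
    rfl
  have hSG : S = G.stoich := by
    rw [hS]
    unfold Vale.Agent.P072.Network.stoich Vale.Agent.P072.Network.rvec
    congr 1
    ext v
    constructor
    · rintro ⟨r, hr, h⟩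
      exact ⟨r, hr, funext h⟩
    · rintro ⟨r, hr, h⟩
      exact ⟨r, hr, fun i => congrFun h i⟩
  have hPG : P = G.posClass c := by
    rw [hP, hSG]; rfl
  subst hfG
  rw [hPG]
  refine ⟨fun k hk => ?_, fun ε hε => ?_, fun ε hε => ?_⟩
  · obtain ⟨K, hKc, hKP, hK⟩ := Vale.Agent.P072.permanent_full hG c hc k hk
    refine ⟨K, hKP, hKc, fun x₀ hx₀ => ?_⟩
    obtain ⟨x, h0, h1, h2, ⟨T, hT⟩, h4⟩ := hK x₀ hx₀
    exact ⟨x, h0, h1, h2, eventually_atTop.2 ⟨T, fun t ht => hT t ht⟩, h4⟩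
  · obtain ⟨K, hKc, hKP, hK⟩ := Vale.Agent.P072.Full.uniform_const c
      (Vale.Agent.P072.varPermanent_full hG c hc hε)
    exact ⟨K, hKP, hKc, hK⟩
  · obtain ⟨K, hKc, hKP, hK⟩ := Vale.Agent.P072.varPermanent_full hG c hc hε
    exact ⟨K, hKP, hKc, hK⟩

end Vale.Agent.Results.P072.LiteralUniform
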