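import Vale.Agent.P072.Full

namespace Vale.Agent.Results.P072.Permanence

open Vale.Agent.P072

/-- The permanence conjecture: every finite weakly reversible mass-action system is permanent on
every positive stoichiometric class, for all positive constant rates and, uniformly, for all
measurable rates with values in `[ε, 1/ε]`. -/
theorem result (d : ℕ) (G : Network d) (hwr : G.WeaklyReversible) (c : Fin d → ℝ)
    (hc : ∀ i, 0 < c i) :
    (∀ k : (Fin d → ℕ) × (Fin d → ℕ) → ℝ, (∀ r ∈ G.rxn, 0 < k r) → G.Permanent k c) ∧
      (∀ ε : ℝ, 0 < ε → G.VarPermanent ε c) :=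
  ⟨fun k hk => permanent_full hwr c hc k hk, fun _ hε => varPermanent_full hwr c hc hε⟩

end Vale.Agent.Results.P072.Permanence
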